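import Mathlib
import Vale.Agent.Lib.P243w.Final

open MeasureTheory Set
open scoped Matrix

/-- Every finite covering of a convex body in three-space by cylinders has directionwise relative
area at least `1/3 + 10^(-59)`: strictly above the Bezdek-Litvak bound `1/3`.  Each cylinder has
unit axis `u i`; its base plane, the plane orthogonal to `u i`, is given the orthonormal basis
`v i, w i`, so that a subset of the plane is a subset `B` of the coordinate plane and its area is
the Lebesgue measure of `B`.  The bases are arbitrary sets.  The last set in the statement is the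
orthogonal projection of `K` onto the plane orthogonal to `u i`, in the same coordinates. -/
theorem Vale.Agent.Results.P243.A_main.result
    (K : Set (Fin 3 → ℝ)) (hK : IsCompact K) (hconv : Convex ℝ K)
    (hint : (interior K).Nonempty) {ι : Type*} [Fintype ι] (u v w : ι → Fin 3 → ℝ)
    (huu : ∀ i, u i ⬝ᵥ u i = 1) (hvv : ∀ i, v i ⬝ᵥ v i = 1) (hww : ∀ i, w i ⬝ᵥ w i = 1)
    (huv : ∀ i, u i ⬝ᵥ v i = 0) (huw : ∀ i, u i ⬝ᵥ w i = 0) (hvw : ∀ i, v i ⬝ᵥ w i = 0)
    (B : ι → Set (Fin 2 → ℝ))
    (hcov : K ⊆ ⋃ i, {x | ∃ b ∈ B i, ∃ t : ℝ, x = b 0 • v i + b 1 • w i + t • u i}) :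
    ENNReal.ofReal (1 / 3 + 1 / 10 ^ 59) ≤
      ∑ i, volume (B i) /
        volume {b : Fin 2 → ℝ | ∃ x ∈ K, ∃ t : ℝ, x = b 0 • v i + b 1 • w i + t • u i} :=
  Vale.Agent.Lib.P243w.final_bound K hK hconv hint u v w huu hvv hww huv huw hvw B hcov
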