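import Vale.Agent.Lib.P243.Final

open MeasureTheory

namespace Vale.Agent.Results.P243.A_universal

/-- Strict improvement of the Bezdek and Litvak bound: every finite covering of a convex body in
three-space by cylinders has directionwise relative area at least `1/3 + 10^(-49)`.
The plane orthogonal to the axis `u i` is identified with `ℝ²` by the linear isometry `e i`; the
`i`-th cylinder is `{e i y + t • u i | y ∈ B i, t ∈ ℝ}` and the projection of `K` along `u i`
is the set `{y | ∃ x ∈ K, ∃ t, x = e i y + t • u i}`. The bases may be arbitrary sets of finite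
outer measure. -/
theorem result (K : Set (EuclideanSpace ℝ (Fin 3))) (hconv : Convex ℝ K) (hcomp : IsCompact K)
    (hint : (interior K).Nonempty) {ι : Type*} [Fintype ι]
    (u : ι → EuclideanSpace ℝ (Fin 3))
    (e : ι → (EuclideanSpace ℝ (Fin 2) →ₗᵢ[ℝ] EuclideanSpace ℝ (Fin 3)))
    (hu : ∀ i, ‖u i‖ = 1) (he : ∀ i y, inner ℝ (e i y) (u i) = 0)
    (B : ι → Set (EuclideanSpace ℝ (Fin 2))) (hB : ∀ i, volume (B i) ≠ ⊤)
    (hcover : ∀ x ∈ K, ∃ i, ∃ y ∈ B i, ∃ t : ℝ, x = e i y + t • u i) :
    (1 / 3 + 1 / 10 ^ 49 : ℝ) ≤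
      ∑ i, (volume (B i)).toReal /
        (volume {y : EuclideanSpace ℝ (Fin 2) | ∃ x ∈ K, ∃ t : ℝ, x = e i y + t • u i}).toReal :=
  Vale.Agent.Lib.P243.relative_bound K hconv hcomp hint u e hu he B hB hcover

end Vale.Agent.Results.P243.A_universal
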